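import Vale.Agent.P030.H787.PGVec
import Vale.Agent.P030.H205.G3

/-!
# P030, row (H4-b): the log-free frames at the four cusps as holomorphic functions

`gf0 c m j + x gf1 c m j` : row `m` of the frame `G_c` (order of helper991, #13530):
`c0 [z1, zl, zL0, e3, e4, e5, z8, zM0]`, `c1 [w1, wl, wL0, e3, e4, e5, w8, t wM]`,
`c2 [vO0, vE0, vb, v2, vl, e5, v8, vM0]`, `c3` = `H205.g3`.
`GF c m t j` its value at `x = G/2`, `|t| < 1`; `tc c y` the local parameter as a function of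
`y = (u+1)/(u-1)`; `GY c m y = GF c m (tc c y)`, analytic on `DY c`
(`c0 : re y < 0`, `c1 : |y| < 1`, `c2 : 0 < re y`, `c3 : 1 < |y|`).
-/

open PowerSeries Metric Set

namespace Vale.Agent.P030.H181

open Vale.Agent.P030.T Vale.Agent.P030.H462 Vale.Agent.P030.AR Vale.Agent.P030.H787

noncomputable section

/-- constant coordinate tuples -/
def es (k : Fin 8) : Fin 8 → ℚ⟦X⟧ := Pi.single k 1

/-- `t wM` without the `T` part: `t wM0 + ((1 - t²)/2) K e_7` -/
def wMt : Fin 8 → ℚ⟦X⟧ :=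
  ![0, 0, 0, 0, 0, 0, X * serM, X * tw serM + sc (1 / 2) ((1 - X ^ 2) * serK)]

/-- the frames, part without `x` -/
def gf0 : Fin 4 → Fin 8 → Fin 8 → ℚ⟦X⟧ :=
  ![![tup0 .z1, tup0 .zl, zL0, es 3, es 4, es 5, tup0 .z8, zM0],
    ![tup0 .w1, tup0 .wl, wL0, es 3, es 4, es 5, tup0 .w8, wMt],
    ![vO0, vE0, tup0 .vb, tup0 .v2, tup0 .vl, es 5, tup0 .v8, vM0],
    Vale.P030.H205.g3]

/-- the coefficient of `x` : only `z1` -/
def gf1 (c : Fin 4) (m : Fin 8) : Fin 8 → ℚ⟦X⟧ := if c = 0 ∧ m = 0 then tup1 .z1 else 0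

theorem pg_es (k j : Fin 8) : PR (es k j) := by
  unfold es
  by_cases h : j = k
  · subst h; rw [Pi.single_eq_same]; exact PG.one
  · rw [Pi.single_eq_of_ne h]; exact PG.zero

theorem pg_wMt (j : Fin 8) : PR (wMt j) :=
  all8 PG.zero PG.zero PG.zero PG.zero PG.zero PG.zero (PG.mul PG.varX pg_serM)
    (PG.add (PG.mul PG.varX (pr_tw pg_serM))
      (pr_sc (PG.mul (PG.sub PG.one (PG.pow PG.varX 2)) pg_serK) _)) j

theorem pg_g3 (m j : Fin 8) : PR (Vale.P030.H205.g3 m j) := by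
  fin_cases m
  · exact pg_tup0 .x2 j
  · exact pg_tup0 .xl j
  · exact pg_tup0 .x1 j
  · exact pg_xO0 j
  · exact pg_xE0 j
  · exact all8 PG.zero PG.zero PG.zero PG.one PG.zero PG.zero PG.zero PG.zero j
  · exact all8 PG.zero PG.zero PG.zero PG.zero PG.zero PG.zero (PG.neg pg_serK)
      (PG.neg (pr_tw pg_serK)) j
  · exact pg_xM0 j

theorem pg_gf0 (c : Fin 4) (m j : Fin 8) : PR (gf0 c m j) := by
  fin_cases c
  · fin_cases m
    · exact pg_tup0 .z1 j
    · exact pg_tup0 .zl j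
    · exact pg_zL0 j
    · exact pg_es 3 j
    · exact pg_es 4 j
    · exact pg_es 5 j
    · exact pg_tup0 .z8 j
    · exact pg_zM0 j
  · fin_cases m
    · exact pg_tup0 .w1 j
    · exact pg_tup0 .wl j
    · exact pg_wL0 j
    · exact pg_es 3 j
    · exact pg_es 4 j
    · exact pg_es 5 j
    · exact pg_tup0 .w8 j
    · exact pg_wMt j
  · fin_cases m
    · exact pg_vO0 j
    · exact pg_vE0 j
    · exact pg_tup0 .vb j
    · exact pg_tup0 .v2 j
    · exact pg_tup0 .vl j
    · exact pg_es 5 j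
    · exact pg_tup0 .v8 j
    · exact pg_vM0 j
  · exact pg_g3 m j

theorem pg_gf1 (c : Fin 4) (m j : Fin 8) : PR (gf1 c m j) := by
  unfold gf1
  split_ifs
  · exact pg_tup1 .z1 j
  · exact PG.zero

/-- the frame at `x = G/2` -/
def GF (c : Fin 4) (m : Fin 8) (t : ℂ) : Fin 8 → ℂ := fun j =>
  evq (gf0 c m j) t + xc * evq (gf1 c m j) t

theorem evq_zero' (t : ℂ) : evq 0 t = 0 := ev_zero t

theorem GF_of_ne {c : Fin 4} {m : Fin 8} (h : ¬(c = 0 ∧ m = 0)) (t : ℂ) :
    GF c m t = evt (gf0 c m) t := by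
  funext j
  unfold GF evt gf1
  rw [if_neg h, Pi.zero_apply, evq_zero', mul_zero, add_zero]

theorem tupC_of_ne {g : Gp} (h : g ≠ .z1) (t : ℂ) : tupC g t = evt (tup0 g) t := by
  funext j
  unfold tupC evt
  have h1 : tup1 g = fun _ => 0 := by
    cases g <;> first | exact absurd rfl h | rfl
  rw [h1, evq_zero', mul_zero, add_zero]

/-! ### the rows which are groups -/

theorem GF_z1 (t : ℂ) : GF 0 0 t = tupC .z1 t := by
  funext j; unfold GF gf1; simp [gf0, tupC]
theorem GF_zl (t : ℂ) : GF 0 1 t = tupC .zl t := by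
  rw [GF_of_ne (by decide), tupC_of_ne (by decide)]; rfl
theorem GF_z8 (t : ℂ) : GF 0 6 t = tupC .z8 t := by
  rw [GF_of_ne (by decide), tupC_of_ne (by decide)]; rfl
theorem GF_w1 (t : ℂ) : GF 1 0 t = tupC .w1 t := by
  rw [GF_of_ne (by decide), tupC_of_ne (by decide)]; rfl
theorem GF_wl (t : ℂ) : GF 1 1 t = tupC .wl t := by
  rw [GF_of_ne (by decide), tupC_of_ne (by decide)]; rfl
theorem GF_w8 (t : ℂ) : GF 1 6 t = tupC .w8 t := by
  rw [GF_of_ne (by decide), tupC_of_ne (by decide)]; rfl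
theorem GF_vb (t : ℂ) : GF 2 2 t = tupC .vb t := by
  rw [GF_of_ne (by decide), tupC_of_ne (by decide)]; rfl
theorem GF_v2 (t : ℂ) : GF 2 3 t = tupC .v2 t := by
  rw [GF_of_ne (by decide), tupC_of_ne (by decide)]; rfl
theorem GF_vl (t : ℂ) : GF 2 4 t = tupC .vl t := by
  rw [GF_of_ne (by decide), tupC_of_ne (by decide)]; rfl
theorem GF_v8 (t : ℂ) : GF 2 6 t = tupC .v8 t := by
  rw [GF_of_ne (by decide), tupC_of_ne (by decide)]; rfl
theorem GF_x2 (t : ℂ) : GF 3 0 t = tupC .x2 t := by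
  rw [GF_of_ne (by decide), tupC_of_ne (by decide)]; rfl
theorem GF_xl (t : ℂ) : GF 3 1 t = tupC .xl t := by
  rw [GF_of_ne (by decide), tupC_of_ne (by decide)]; rfl
theorem GF_x1 (t : ℂ) : GF 3 2 t = tupC .x1 t := by
  rw [GF_of_ne (by decide), tupC_of_ne (by decide)]; rfl

theorem evq_one' (t : ℂ) : evq 1 t = 1 := ev_one t

theorem evt_es (k : Fin 8) (t : ℂ) : evt (es k) t = Pi.single k 1 := by
  funext j
  unfold evt es
  by_cases h : j = k
  · subst h; rw [Pi.single_eq_same, Pi.single_eq_same, evq_one']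
  · rw [Pi.single_eq_of_ne h, Pi.single_eq_of_ne h, evq_zero']

theorem tup0_zab : tup0 .zab = es 3 := by
  funext j; fin_cases j <;> rfl
theorem tup0_wab : tup0 .wab = es 3 := by
  funext j; fin_cases j <;> rfl
theorem tup0_wf7 : tup0 .wf7 = es 5 := by
  funext j; fin_cases j <;> rfl

theorem GF_zab (t : ℂ) : GF 0 3 t = tupC .zab t := by
  rw [GF_of_ne (by decide), tupC_of_ne (by decide), tup0_zab]; rfl
theorem GF_wab (t : ℂ) : GF 1 3 t = tupC .wab t := by
  rw [GF_of_ne (by decide), tupC_of_ne (by decide), tup0_wab]; rfl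
theorem GF_wf7 (t : ℂ) : GF 1 5 t = tupC .wf7 t := by
  rw [GF_of_ne (by decide), tupC_of_ne (by decide), tup0_wf7]; rfl

/-- `e3`, `e4`, `e5` -/
theorem GF_d0 (t : ℂ) : GF 0 3 t = dv := by rw [GF_of_ne (by decide)]; exact evt_es 3 t
theorem GF_g0 (t : ℂ) : GF 0 4 t = gv := by rw [GF_of_ne (by decide)]; exact evt_es 4 t
theorem GF_h0 (t : ℂ) : GF 0 5 t = hv := by rw [GF_of_ne (by decide)]; exact evt_es 5 t
theorem GF_d1 (t : ℂ) : GF 1 3 t = dv := by rw [GF_of_ne (by decide)]; exact evt_es 3 t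
theorem GF_g1 (t : ℂ) : GF 1 4 t = gv := by rw [GF_of_ne (by decide)]; exact evt_es 4 t
theorem GF_h1 (t : ℂ) : GF 1 5 t = hv := by rw [GF_of_ne (by decide)]; exact evt_es 5 t
theorem GF_h2 (t : ℂ) : GF 2 5 t = hv := by rw [GF_of_ne (by decide)]; exact evt_es 5 t

theorem evq_neg' (f : ℚ⟦X⟧) (t : ℂ) : evq (-f) t = -evq f t := ev_neg f t
theorem evq_sc' {f : ℚ⟦X⟧} (hf : PR f) (q : ℚ) {t : ℂ} (ht : ‖t‖ < 1) :
    evq (sc q f) t = (q : ℂ) * evq f t := by
  unfold evq sc
  rw [ev_mul (PG.const q) hf ht, ev_C]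
  simp
theorem evq_C' (q : ℚ) (t : ℂ) : evq (C q) t = (q : ℂ) := by
  unfold evq
  rw [ev_C]
  simp

/-- `wy = -(4/3)(e3 + e4) - w8` -/
theorem GF_wy (t : ℂ) : -(4 / 3 : ℂ) • GF 1 3 t - (4 / 3 : ℂ) • GF 1 4 t - GF 1 6 t
    = tupC .wy t := by
  rw [GF_d1, GF_g1, GF_w8, tupC_of_ne (by decide), tupC_of_ne (by decide)]
  funext j
  fin_cases j <;> simp [evt, tup0, dv, gv, evq_neg', evq_zero', evq_C']

/-- `t wM` is the row 7 at `c1` -/
theorem GF_wMt {t : ℂ} (ht : ‖t‖ < 1) (h0 : t ≠ 0) : GF 1 7 t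
    = t • (evt wM0 t + ((1 - t ^ 2) / (2 * t) * evq serK t) • Pi.single 7 1) := by
  rw [GF_of_ne (by decide)]
  funext j
  have e1 : evq (X * serM) t = t * evq serM t := by
    unfold evq; rw [ev_mul PG.varX pg_serM ht, ev_X]
  have e2 : evq (X * tw serM + sc (1 / 2) ((1 - X ^ 2) * serK)) t
      = t * (evq (tw serM) t + (1 - t ^ 2) / (2 * t) * evq serK t) := by
    have h1 : PR ((1 - X ^ 2) * serK) := PG.mul (PG.sub PG.one (PG.pow PG.varX 2)) pg_serK
    have h2 : evq ((1 - X ^ 2) * serK) t = (1 - t ^ 2) * evq serK t := by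
      unfold evq
      rw [ev_mul (PG.sub PG.one (PG.pow PG.varX 2)) pg_serK ht,
        ev_sub PG.one (PG.pow PG.varX 2) ht, ev_one, ev_pow PG.varX 2 ht, ev_X]
    have h3 : evq (X * tw serM + sc (1 / 2) ((1 - X ^ 2) * serK)) t
        = evq (X * tw serM) t + evq (sc (1 / 2) ((1 - X ^ 2) * serK)) t := by
      unfold evq
      exact ev_add (PG.mul PG.varX (pr_tw pg_serM)) (pr_sc h1 _) ht
    have h4 : evq (X * tw serM) t = t * evq (tw serM) t := by
      unfold evq; rw [ev_mul PG.varX (pr_tw pg_serM) ht, ev_X]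
    rw [h3, h4, evq_sc' h1 _ ht, h2]
    push_cast
    field_simp
  fin_cases j
  · simp [evt, gf0, wMt, wM0, evq_zero']
  · simp [evt, gf0, wMt, wM0, evq_zero']
  · simp [evt, gf0, wMt, wM0, evq_zero']
  · simp [evt, gf0, wMt, wM0, evq_zero']
  · simp [evt, gf0, wMt, wM0, evq_zero']
  · simp [evt, gf0, wMt, wM0, evq_zero']
  · simp [evt, gf0, wMt, wM0, e1]
  · show evq (X * tw serM + sc (1 / 2) ((1 - X ^ 2) * serK)) t = _
    rw [e2]
    simp [evt, wM0]

/-- `t k3'` : `k3 = xl + e4 - e5` is `t` times the row 6 at `c3` -/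
theorem GF_k3 {t : ℂ} (ht : ‖t‖ < 1) : t • GF 3 6 t = k3v t := by
  rw [GF_of_ne (by decide), k3v, tupC_of_ne (by decide)]
  have e1 : evq (X * serK) t = t * evq serK t := by
    unfold evq; rw [ev_mul PG.varX pg_serK ht, ev_X]
  have e2 : evq (X * tw serK) t = t * evq (tw serK) t := by
    unfold evq; rw [ev_mul PG.varX (pr_tw pg_serK) ht, ev_X]
  funext j
  fin_cases j <;>
    simp [evt, gf0, Vale.P030.H205.g3, tup0, gv, hv, evq_zero', evq_neg', evq_one', e1, e2]

/-! ### holomorphy in `t` -/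

theorem diff_GF (c : Fin 4) (m j : Fin 8) :
    DifferentiableOn ℂ (fun t => GF c m t j) (ball 0 1) :=
  (diff_evq (pg_gf0 c m j)).add ((diff_evq (pg_gf1 c m j)).const_mul xc)

theorem analyticAt_GF (c : Fin 4) (m j : Fin 8) {t : ℂ} (ht : ‖t‖ < 1) :
    AnalyticAt ℂ (fun t => GF c m t j) t :=
  (diff_GF c m j).analyticAt (isOpen_ball.mem_nhds (mem_ball_zero_iff.2 ht))

theorem continuousOn_GF (c : Fin 4) (m j : Fin 8) : ContinuousOn (fun t => GF c m t j) (ball 0 1) :=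
  (diff_GF c m j).continuousOn

theorem conj_GF (c : Fin 4) (m : Fin 8) (t : ℂ) (j : Fin 8) :
    GF c m ((starRingEnd ℂ) t) j = (starRingEnd ℂ) (GF c m t j) := by
  simp only [GF, conj_evq, map_add, map_mul, conj_xc]

/-! ### in the variable `y = (u+1)/(u-1)` -/

/-- the local parameter -/
def tc : Fin 4 → ℂ → ℂ := ![fun y => (y + 1) / (y - 1), fun y => y, fun y => (y - 1) / (y + 1),
  fun y => 1 / y]

/-- its unit disc -/
def DY : Fin 4 → Set ℂ := ![{y | y.re < 0}, {y | ‖y‖ < 1}, {y | 0 < y.re}, {y | 1 < ‖y‖}]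

theorem isOpen_DY (c : Fin 4) : IsOpen (DY c) := by
  fin_cases c
  · exact isOpen_lt Complex.continuous_re continuous_const
  · exact isOpen_lt continuous_norm continuous_const
  · exact isOpen_lt continuous_const Complex.continuous_re
  · exact isOpen_lt continuous_const continuous_norm

theorem tc_props (c : Fin 4) {y : ℂ} (hy : y ∈ DY c) :
    ‖tc c y‖ < 1 ∧ AnalyticAt ℂ (tc c) y := by
  fin_cases c
  · have h : y.re < 0 := hy
    have h0 : y - 1 ≠ 0 := by
      intro h1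
      have : (y - 1).re = 0 := by rw [h1]; rfl
      simp at this
      linarith
    refine ⟨?_, ?_⟩
    · show ‖(y + 1) / (y - 1)‖ < 1
      rw [norm_div, div_lt_one (norm_pos_iff.2 h0)]
      refine lt_of_pow_lt_pow_left₀ 2 (norm_nonneg _) ?_
      rw [Complex.sq_norm, Complex.sq_norm, Complex.normSq_apply, Complex.normSq_apply]
      simp
      nlinarith
    · show AnalyticAt ℂ (fun y : ℂ => (y + 1) / (y - 1)) y
      exact (analyticAt_id.add analyticAt_const).div (analyticAt_id.sub analyticAt_const) h0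
  · exact ⟨hy, analyticAt_id⟩
  · have h : 0 < y.re := hy
    have h0 : y + 1 ≠ 0 := by
      intro h1
      have : (y + 1).re = 0 := by rw [h1]; rfl
      simp at this
      linarith
    refine ⟨?_, ?_⟩
    · show ‖(y - 1) / (y + 1)‖ < 1
      rw [norm_div, div_lt_one (norm_pos_iff.2 h0)]
      refine lt_of_pow_lt_pow_left₀ 2 (norm_nonneg _) ?_
      rw [Complex.sq_norm, Complex.sq_norm, Complex.normSq_apply, Complex.normSq_apply]
      simp
      nlinarith
    · show AnalyticAt ℂ (fun y : ℂ => (y - 1) / (y + 1)) y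
      exact (analyticAt_id.sub analyticAt_const).div (analyticAt_id.add analyticAt_const) h0
  · have h : 1 < ‖y‖ := hy
    have h0 : y ≠ 0 := by rintro rfl; simp at h; linarith
    refine ⟨?_, ?_⟩
    · show ‖1 / y‖ < 1
      rw [norm_div, norm_one, div_lt_one (norm_pos_iff.2 h0)]
      exact h
    · show AnalyticAt ℂ (fun y : ℂ => 1 / y) y
      exact analyticAt_const.div analyticAt_id h0

/-- the frame as a function of `y` -/
def GY (c : Fin 4) (m : Fin 8) (y : ℂ) : Fin 8 → ℂ := GF c m (tc c y)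

theorem analyticAt_GY (c : Fin 4) (m j : Fin 8) {y : ℂ} (hy : y ∈ DY c) :
    AnalyticAt ℂ (fun y => GY c m y j) y :=
  AnalyticAt.comp (g := fun t => GF c m t j) (analyticAt_GF c m j (tc_props c hy).1)
    (tc_props c hy).2

theorem differentiableOn_GY (c : Fin 4) (m j : Fin 8) :
    DifferentiableOn ℂ (fun y => GY c m y j) (DY c) := fun _ hy =>
  (analyticAt_GY c m j hy).differentiableAt.differentiableWithinAt

theorem continuousOn_GY (c : Fin 4) (m j : Fin 8) :
    ContinuousOn (fun y => GY c m y j) (DY c) := (differentiableOn_GY c m j).continuousOn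

/-- a cusp member: a constant combination of the rows of the frame -/
def GM (c : Fin 4) (b : Fin 8 → ℂ) (y : ℂ) : Fin 8 → ℂ := fun j => ∑ m, b m * GY c m y j

theorem analyticAt_GM (c : Fin 4) (b : Fin 8 → ℂ) (j : Fin 8) {y : ℂ} (hy : y ∈ DY c) :
    AnalyticAt ℂ (fun y => GM c b y j) y := by
  unfold GM
  exact Finset.analyticAt_fun_sum _ fun m _ => analyticAt_const.mul (analyticAt_GY c m j hy)

theorem continuousOn_GM (c : Fin 4) (b : Fin 8 → ℂ) (j : Fin 8) :
    ContinuousOn (fun y => GM c b y j) (DY c) := fun _ hy =>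
  (analyticAt_GM c b j hy).continuousAt.continuousWithinAt

theorem conj_tc (c : Fin 4) (y : ℂ) : tc c ((starRingEnd ℂ) y) = (starRingEnd ℂ) (tc c y) := by
  fin_cases c <;> simp [tc]

theorem conj_GY (c : Fin 4) (m : Fin 8) (y : ℂ) (j : Fin 8) :
    GY c m ((starRingEnd ℂ) y) j = (starRingEnd ℂ) (GY c m y j) := by
  rw [GY, conj_tc, conj_GF]; rfl

theorem conj_mem_DY (c : Fin 4) {y : ℂ} : (starRingEnd ℂ) y ∈ DY c ↔ y ∈ DY c := by
  fin_cases c <;> simp [DY]

end

end Vale.Agent.P030.H181
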