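import Vale.Agent.P030.AR.Vec
import Vale.Agent.P030.H462.FhDef

/-!
# P030, row (R-c): closed formulas for the four K-branches; they have no zeros

`kC u = (4/π²) ∬ (1 - u² sin² α sin² β)⁻¹` is holomorphic on `cutK = {u | u² ∉ [1,∞)}`, has no
zeros there, and is `evq serK` on the unit disc.  For `V` with `IsV V` the slot 6 (`(1-u) F`) of
`A0`, `A3`, `A3 + 2 i A0`, `A0 - i A3` is an elementary factor times `kC` of the local parameter
of `c0`, `c3`, `c1`, `c2`, on the whole upper half plane, and on `OmI q` for the two intervals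
adjacent to the cusp.
-/

open MeasureTheory Set Metric Filter Topology PowerSeries

namespace Vale.Agent.P030.H181

open Vale.Agent.P030.T Vale.Agent.P030.H462 Vale.Agent.P030.AR

theorem evq_eq (f : ℚ⟦X⟧) (z : ℂ) : evq f z = evQ f z := by
  unfold evq evQ
  rw [show (Rat.castHom ℂ) = algebraMap ℚ ℂ from Subsingleton.elim _ _]

noncomputable section

/-- `sin² α sin² β` -/
def sk (x : ℝ × ℝ) : ℝ := ss x ^ 2

theorem meas_sk : Measurable sk := meas_ss.pow_const 2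

theorem ae_sk : ∀ᵐ x ∂mu2, sk x ∈ Icc (0 : ℝ) 1 := by
  filter_upwards [ae_ss] with x hx
  exact ⟨sq_nonneg _, pow_le_one₀ hx.1 hx.2⟩

theorem ae_sk_pos : ∀ᵐ x ∂mu2, 0 < sk x := by
  filter_upwards [ae_mu2] with x hx
  have a : 0 < Real.sin x.1 := Real.sin_pos_of_pos_of_lt_pi hx.1.1 (by linarith [hx.1.2, Real.pi_pos])
  have b : 0 < Real.sin x.2 := Real.sin_pos_of_pos_of_lt_pi hx.2.1 (by linarith [hx.2.2, Real.pi_pos])
  exact pow_pos (mul_pos a b) 2

theorem cB2_even : ∀ n, cB2 (2 * n) = 0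
  | 0 => rfl
  | n + 1 => by
    have h : 2 * (n + 1) = 2 * n + 2 := by ring
    rw [h, cB2, cB2_even n]; simp

theorem coeff_serK_odd (n : ℕ) : coeff (2 * n + 1) serK = 0 := by
  simp only [serK, coeff_mk]
  rw [if_neg]
  rw [Nat.not_even_iff_odd]
  exact ⟨n, rfl⟩

theorem mom_sk (n : ℕ) : ∫ x, sk x ^ n ∂mu2
    = Real.pi ^ 2 / 4 * ((coeff (2 * n) serK : ℚ) : ℝ) := by
  have h1 : ∀ x : ℝ × ℝ, sk x ^ n = ss x ^ (2 * n) := fun x => by rw [sk, ← pow_mul]
  simp_rw [h1]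
  rw [mom_ss]
  have h2 := wal_coeff (2 * n)
  rw [cB2_even] at h2
  push_cast at h2
  linarith

/-- the double slit plane -/
def cutK : Set ℂ := {u | u ^ 2 ∈ cut1}

theorem isOpen_cutK : IsOpen cutK := isOpen_cut1.preimage (continuous_pow 2)

/-- `K` on the double slit plane -/
def kC (u : ℂ) : ℂ := 4 / (Real.pi : ℂ) ^ 2 * stiel mu2 sk (u ^ 2)

theorem differentiableOn_kC : DifferentiableOn ℂ kC cutK := by
  unfold kC
  refine DifferentiableOn.const_mul ?_ _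
  exact (differentiableOn_stiel meas_sk ae_sk).comp (differentiableOn_pow 2) (fun u hu => hu)

theorem ball_sub_cutK : ball (0 : ℂ) 1 ⊆ cutK := by
  intro u hu
  refine ball_sub_cut1 ?_
  rw [mem_ball_zero_iff] at hu ⊢
  rw [norm_pow]
  exact pow_lt_one₀ (norm_nonneg _) hu two_ne_zero

theorem kC_eq {u : ℂ} (hu : ‖u‖ < 1) : kC u = evq serK u := by
  rw [evq_eq]
  have hu2 : ‖u ^ 2‖ < 1 := by
    rw [norm_pow]; exact pow_lt_one₀ (norm_nonneg _) hu two_ne_zero
  have h1 := (hasSum_stiel meas_sk ae_sk hu2).mul_left (4 / (Real.pi : ℂ) ^ 2)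
  have h2 := pq_serK.hasSum hu
  have hpi : (Real.pi : ℂ) ≠ 0 := by exact_mod_cast Real.pi_ne_zero
  -- even and odd parts
  have h3 : HasSum (fun n : ℕ => (algebraMap ℚ ℂ) (coeff (2 * n) serK) * u ^ (2 * n)) (kC u) := by
    have e : (fun n : ℕ => (algebraMap ℚ ℂ) (coeff (2 * n) serK) * u ^ (2 * n))
        = fun n : ℕ => 4 / (Real.pi : ℂ) ^ 2 * ((u ^ 2) ^ n * ((∫ x, sk x ^ n ∂mu2 : ℝ) : ℂ)) := by
      funext n
      rw [mom_sk, ← pow_mul]
      simp only [eq_ratCast]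
      push_cast
      field_simp
    rw [e]
    exact h1
  have h4 : HasSum (fun n : ℕ => (algebraMap ℚ ℂ) (coeff (2 * n + 1) serK) * u ^ (2 * n + 1)) 0 := by
    have : (fun n : ℕ => (algebraMap ℚ ℂ) (coeff (2 * n + 1) serK) * u ^ (2 * n + 1))
        = fun _ => 0 := by
      funext n
      rw [coeff_serK_odd, map_zero, zero_mul]
    rw [this]
    exact hasSum_zero
  have h5 := HasSum.even_add_odd (f := fun n : ℕ => (algebraMap ℚ ℂ) (coeff n serK) * u ^ n) h3 h4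
  rw [add_zero] at h5
  exact h5.unique h2

/-! ### no zeros -/

theorem mu2_univ_pos : 0 < mu2 univ := by
  have h : mu1 univ ≠ 0 := by
    rw [mu1, Measure.restrict_apply_univ, Real.volume_Ioc]
    simp [Real.pi_pos]
  rw [mu2, ← univ_prod_univ, Measure.prod_prod]
  exact pos_iff_ne_zero.2 (mul_ne_zero h h)

theorem integral_pos_of_ae {f : ℝ × ℝ → ℝ} (hf : Integrable f mu2) (h : ∀ᵐ x ∂mu2, 0 < f x) :
    0 < ∫ x, f x ∂mu2 := by
  rw [integral_pos_iff_support_of_nonneg_ae (h.mono fun x hx => hx.le) hf]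
  have : Function.support f =ᵐ[mu2] univ :=
    eventuallyEq_univ.2 (h.mono fun x hx => ne_of_gt hx)
  rw [measure_congr this]
  exact mu2_univ_pos

theorem stiel_ne {z : ℂ} (hz : z ∈ cut1) : stiel mu2 sk z ≠ 0 := by
  have hint := integrable_kernel (μ := mu2) meas_sk ae_sk hz
  have hns : ∀ᵐ x ∂mu2, 0 < Complex.normSq (1 - z * (sk x : ℂ)) := by
    filter_upwards [ae_sk] with x hx
    exact Complex.normSq_pos.2 (hz _ hx)
  by_cases him : z.im = 0
  · -- the real part is positive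
    have hre : ∀ᵐ x ∂mu2, 0 < ((1 - z * (sk x : ℂ))⁻¹).re := by
      filter_upwards [hns, ae_sk] with x hx hs
      rw [Complex.inv_re]
      refine div_pos ?_ hx
      have h1 : (1 - z * (sk x : ℂ)).re = 1 - z.re * sk x := by simp
      rw [h1]
      by_contra hcon
      push Not at hcon
      have h2 : 1 ≤ z.re * sk x := by linarith
      have hzr : 0 < z.re := by
        by_contra h3
        push Not at h3
        nlinarith [hs.1]
      -- then `1 / z.re ∈ [0,1]` is a bad point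
      have h4 : 1 ≤ z.re := by nlinarith [hs.1, hs.2]
      refine hz (1 / z.re) ⟨by positivity, by rw [div_le_one hzr]; exact h4⟩ ?_
      apply Complex.ext
      · simp [him]; field_simp; ring
      · simp [him]
    have h1 := integral_pos_of_ae hint.re hre
    have h2 : ∫ x, ((1 - z * (sk x : ℂ))⁻¹).re ∂mu2 = (stiel mu2 sk z).re := integral_re hint
    intro h0
    rw [h0] at h2
    simp only [Complex.zero_re] at h2
    have h3 : 0 < ∫ x, ((1 - z * (sk x : ℂ))⁻¹).re ∂mu2 := h1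
    linarith
  · have hi : ∀ᵐ x ∂mu2, 0 < z.im * ((1 - z * (sk x : ℂ))⁻¹).im := by
      filter_upwards [hns, ae_sk_pos] with x hx hs
      rw [Complex.inv_im]
      have h1 : (1 - z * (sk x : ℂ)).im = -(z.im * sk x) := by simp
      rw [h1, neg_neg, mul_div_assoc', ← mul_assoc]
      exact div_pos (mul_pos (mul_self_pos.2 him) hs) hx
    have h1 := integral_pos_of_ae (hint.im.const_mul z.im) hi
    have h2 : ∫ x, ((1 - z * (sk x : ℂ))⁻¹).im ∂mu2 = (stiel mu2 sk z).im := integral_im hint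
    intro h0
    rw [h0] at h2
    simp only [Complex.zero_im] at h2
    have h3 : 0 < ∫ x, z.im * ((1 - z * (sk x : ℂ))⁻¹).im ∂mu2 := h1
    rw [integral_const_mul, h2, mul_zero] at h3
    exact lt_irrefl _ h3

theorem kC_ne {u : ℂ} (hu : u ∈ cutK) : kC u ≠ 0 := by
  have hpi : (Real.pi : ℂ) ≠ 0 := by exact_mod_cast Real.pi_ne_zero
  refine mul_ne_zero (div_ne_zero (by norm_num) (pow_ne_zero _ hpi)) (stiel_ne hu)

theorem mem_cutK_of_im {u : ℂ} (hu : u.im ≠ 0) : u ∈ cutK := by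
  intro s hs h0
  have h1 : (1 - u ^ 2 * (s : ℂ)).im = 0 := by rw [h0]; rfl
  have h2 : (1 - u ^ 2 * (s : ℂ)).re = 0 := by rw [h0]; rfl
  simp only [pow_two, Complex.sub_im, Complex.one_im, Complex.mul_im, Complex.mul_re,
    Complex.ofReal_re, Complex.ofReal_im, Complex.sub_re, Complex.one_re, mul_zero,
    sub_zero] at h1 h2
  have hs0 : s ≠ 0 := by
    rintro rfl
    simp at h2
  have h3 : u.re * u.im = 0 := by
    have : (u.re * u.im) * s = 0 := by linarith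
    rcases mul_eq_zero.1 this with h | h
    · exact h
    · exact absurd h hs0
  have h4 : u.re = 0 := by
    rcases mul_eq_zero.1 h3 with h | h
    · exact h
    · exact absurd h hu
  rw [h4] at h2
  nlinarith [hs.1, mul_nonneg (mul_self_nonneg u.im) hs.1]

theorem mem_cutK_of_re {u : ℂ} (h1 : -1 < u.re) (h2 : u.re < 1) : u ∈ cutK := by
  by_cases him : u.im = 0
  · refine ball_sub_cutK ?_
    rw [mem_ball_zero_iff]
    have : u = ((u.re : ℝ) : ℂ) := Complex.ext rfl (by simp [him])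
    rw [this, Complex.norm_real, Real.norm_eq_abs, abs_lt]
    exact ⟨h1, h2⟩
  · exact mem_cutK_of_im him

theorem one_notMem_cutK : (1 : ℂ) ∉ cutK := by
  intro h
  exact h 1 ⟨zero_le_one, le_rfl⟩ (by simp)

theorem ne_one_of_mem {u : ℂ} (hu : u ∈ cutK) : 1 - u ≠ 0 := by
  intro h
  have : u = 1 := by linear_combination -h
  rw [this] at hu
  exact one_notMem_cutK hu

/-! ### the local parameters -/

theorem inv_im_ne {z : ℂ} (h : z.im ≠ 0) : (z⁻¹).im ≠ 0 := by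
  rw [Complex.inv_im]
  have hz : z ≠ 0 := by rintro rfl; simp at h
  exact div_ne_zero (neg_ne_zero.2 h) (Complex.normSq_pos.2 hz).ne'

theorem norm_t3_lt {u : ℂ} (h : 0 < u.re) : ‖(u - 1) / (u + 1)‖ < 1 := by
  have h0 : u + 1 ≠ 0 := by
    intro h1
    have : (u + 1).re = 0 := by rw [h1]; rfl
    simp at this
    linarith
  rw [norm_div, div_lt_one (norm_pos_iff.2 h0)]
  refine lt_of_pow_lt_pow_left₀ 2 (norm_nonneg _) ?_
  rw [Complex.sq_norm, Complex.sq_norm, Complex.normSq_apply, Complex.normSq_apply]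
  simp
  nlinarith

theorem norm_t1_lt {u : ℂ} (h : u.re < 0) : ‖(u + 1) / (u - 1)‖ < 1 := by
  have h0 : u - 1 ≠ 0 := by
    intro h1
    have : (u - 1).re = 0 := by rw [h1]; rfl
    simp at this
    linarith
  rw [norm_div, div_lt_one (norm_pos_iff.2 h0)]
  refine lt_of_pow_lt_pow_left₀ 2 (norm_nonneg _) ?_
  rw [Complex.sq_norm, Complex.sq_norm, Complex.normSq_apply, Complex.normSq_apply]
  simp
  nlinarith

theorem t3_mem {u : ℂ} (h : u.im ≠ 0 ∨ 0 < u.re) : u + 1 ≠ 0 ∧ (u - 1) / (u + 1) ∈ cutK := by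
  rcases h with h | h
  · have h0 : u + 1 ≠ 0 := by
      intro h1
      apply h
      have : (u + 1).im = 0 := by rw [h1]; rfl
      simpa using this
    refine ⟨h0, mem_cutK_of_im ?_⟩
    have e : (u - 1) / (u + 1) = 1 - 2 * (u + 1)⁻¹ := by field_simp; ring
    have h2 : ((u + 1)⁻¹).im ≠ 0 := inv_im_ne (by simpa using h)
    rw [e]
    simpa using h2
  · refine ⟨?_, ball_sub_cutK (mem_ball_zero_iff.2 (norm_t3_lt h))⟩
    intro h1
    have : (u + 1).re = 0 := by rw [h1]; rfl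
    simp at this
    linarith

theorem t1_mem {u : ℂ} (h : u.im ≠ 0 ∨ u.re < 0) : u - 1 ≠ 0 ∧ (u + 1) / (u - 1) ∈ cutK := by
  rcases h with h | h
  · have h0 : u - 1 ≠ 0 := by
      intro h1
      apply h
      have : (u - 1).im = 0 := by rw [h1]; rfl
      simpa using this
    refine ⟨h0, mem_cutK_of_im ?_⟩
    have e : (u + 1) / (u - 1) = 1 + 2 * (u - 1)⁻¹ := by field_simp; ring
    have h2 : ((u - 1)⁻¹).im ≠ 0 := inv_im_ne (by simpa using h)
    rw [e]
    simpa using h2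
  · refine ⟨?_, ball_sub_cutK (mem_ball_zero_iff.2 (norm_t1_lt h))⟩
    intro h1
    have : (u - 1).re = 0 := by rw [h1]; rfl
    simp at this
    linarith

theorem t2_mem {u : ℂ} (h : u.im ≠ 0 ∨ 1 < ‖u‖) : u ≠ 0 ∧ 1 / u ∈ cutK := by
  rcases h with h | h
  · refine ⟨by rintro rfl; simp at h, mem_cutK_of_im ?_⟩
    rw [one_div]
    exact inv_im_ne h
  · have h0 : u ≠ 0 := by rintro rfl; simp at h; linarith
    refine ⟨h0, ball_sub_cutK (mem_ball_zero_iff.2 ?_)⟩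
    rw [norm_div, norm_one, div_lt_one (norm_pos_iff.2 h0)]
    exact h

/-! ### the four K-branches in the slot `(1-u) F` -/

/-- `A0` at `c0` -/
def K0f (u : ℂ) : ℂ := pc / 2 * ((1 - u) * kC u)
/-- `A3` at `c3` -/
def K3f (u : ℂ) : ℂ := -(pc * ((u - 1) / (u + 1) * kC ((u - 1) / (u + 1))))
/-- `A3 + 2 i A0` at `c1` -/
def K1f (u : ℂ) : ℂ := pc * kC ((u + 1) / (u - 1))
/-- `A0 - i A3` at `c2` -/
def K2f (u : ℂ) : ℂ := -(pc / 2 * ((1 - 1 / u) * kC (1 / u)))

theorem pc_ne : pc ≠ 0 := by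
  unfold pc
  exact_mod_cast Real.pi_ne_zero

theorem K0f_ne {u : ℂ} (hu : u ∈ cutK) : K0f u ≠ 0 :=
  mul_ne_zero (div_ne_zero pc_ne two_ne_zero) (mul_ne_zero (ne_one_of_mem hu) (kC_ne hu))

theorem K3f_ne {u : ℂ} (hu : u.im ≠ 0 ∨ 0 < u.re) (h1 : u ≠ 1) : K3f u ≠ 0 := by
  obtain ⟨h0, h2⟩ := t3_mem hu
  exact neg_ne_zero.2 (mul_ne_zero pc_ne
    (mul_ne_zero (div_ne_zero (sub_ne_zero.2 h1) h0) (kC_ne h2)))

theorem K1f_ne {u : ℂ} (hu : u.im ≠ 0 ∨ u.re < 0) : K1f u ≠ 0 :=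
  mul_ne_zero pc_ne (kC_ne (t1_mem hu).2)

theorem K2f_ne {u : ℂ} (hu : u.im ≠ 0 ∨ 1 < ‖u‖) : K2f u ≠ 0 := by
  obtain ⟨_, h2⟩ := t2_mem hu
  exact neg_ne_zero.2 (mul_ne_zero (div_ne_zero pc_ne two_ne_zero)
    (mul_ne_zero (ne_one_of_mem h2) (kC_ne h2)))

theorem differentiableAt_kC {u : ℂ} (hu : u ∈ cutK) : DifferentiableAt ℂ kC u :=
  differentiableOn_kC.differentiableAt (isOpen_cutK.mem_nhds hu)

theorem differentiableAt_K0f {u : ℂ} (hu : u ∈ cutK) : DifferentiableAt ℂ K0f u := by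
  have h := differentiableAt_kC hu
  unfold K0f
  fun_prop

theorem differentiableAt_K3f {u : ℂ} (hu : u.im ≠ 0 ∨ 0 < u.re) : DifferentiableAt ℂ K3f u := by
  obtain ⟨h0, h2⟩ := t3_mem hu
  have h3 : DifferentiableAt ℂ (fun u : ℂ => (u - 1) / (u + 1)) u := by fun_prop (disch := exact h0)
  have h4 : DifferentiableAt ℂ (fun u : ℂ => kC ((u - 1) / (u + 1))) u :=
    DifferentiableAt.comp u (g := kC) (differentiableAt_kC h2) h3
  unfold K3f
  exact ((h3.mul h4).const_mul _).neg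

theorem differentiableAt_K1f {u : ℂ} (hu : u.im ≠ 0 ∨ u.re < 0) : DifferentiableAt ℂ K1f u := by
  obtain ⟨h0, h2⟩ := t1_mem hu
  have h3 : DifferentiableAt ℂ (fun u : ℂ => (u + 1) / (u - 1)) u := by fun_prop (disch := exact h0)
  have h4 : DifferentiableAt ℂ (fun u : ℂ => kC ((u + 1) / (u - 1))) u :=
    DifferentiableAt.comp u (g := kC) (differentiableAt_kC h2) h3
  unfold K1f
  exact h4.const_mul _

theorem differentiableAt_K2f {u : ℂ} (hu : u.im ≠ 0 ∨ 1 < ‖u‖) : DifferentiableAt ℂ K2f u := by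
  obtain ⟨h0, h2⟩ := t2_mem hu
  have h3 : DifferentiableAt ℂ (fun u : ℂ => 1 / u) u := by fun_prop (disch := exact h0)
  have h4 : DifferentiableAt ℂ (fun u : ℂ => kC (1 / u)) u :=
    DifferentiableAt.comp u (g := kC) (differentiableAt_kC h2) h3
  unfold K2f
  exact (((h3.const_sub 1).mul h4).const_mul _).neg

/-! ### the identity theorem on `Up` and on `OmI q` -/

theorem isOpen_Up : IsOpen Up := isOpen_lt continuous_const Complex.continuous_im

theorem convex_Up : Convex ℝ Up := convex_halfSpace_im_gt 0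

theorem eqOn_of_open {Ω : Set ℂ} (ho : IsOpen Ω) (hp : IsPreconnected Ω) {f g : ℂ → ℂ}
    (hf : DifferentiableOn ℂ f Ω) (hg : DifferentiableOn ℂ g Ω) {O : Set ℂ} (hO : IsOpen O)
    {z0 : ℂ} (h0 : z0 ∈ O) (h0' : z0 ∈ Ω) (h : ∀ z ∈ Ω, z ∈ O → f z = g z) :
    ∀ z ∈ Ω, f z = g z := by
  refine (hf.analyticOnNhd ho).eqOn_of_preconnected_of_eventuallyEq (hg.analyticOnNhd ho) hp h0' ?_
  filter_upwards [hO.mem_nhds h0, ho.mem_nhds h0'] with z hz hz' using h z hz' hz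

theorem isOpen_Iv (q : Fin 4) : IsOpen (Iv q) := by
  fin_cases q
  · exact isOpen_Iio
  · exact isOpen_Ioo
  · exact isOpen_Ioo
  · exact isOpen_Ioi

theorem convex_Iv (q : Fin 4) : Convex ℝ (Iv q) := by
  fin_cases q
  · exact convex_Iio _
  · exact convex_Ioo _ _
  · exact convex_Ioo _ _
  · exact convex_Ioi _

theorem nonempty_Iv (q : Fin 4) : (Iv q).Nonempty := by
  fin_cases q
  · exact ⟨-2, by norm_num [Iv]⟩
  · exact ⟨-1 / 2, by norm_num [Iv]⟩
  · exact ⟨1 / 2, by norm_num [Iv]⟩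
  · exact ⟨2, by simp [Iv]⟩

theorem isOpen_OmI (q : Fin 4) : IsOpen (OmI q) := by
  have h : OmI q = {u : ℂ | u.im ≠ 0} ∪ Complex.re ⁻¹' (Iv q) := by
    ext u
    simp only [OmI, Set.mem_ofPred_eq, mem_union, mem_preimage]
    tauto
  rw [h]
  exact (isOpen_ne_fun Complex.continuous_im continuous_const).union
    ((isOpen_Iv q).preimage Complex.continuous_re)

theorem isPreconnected_OmI (q : Fin 4) : IsPreconnected (OmI q) := by
  obtain ⟨x, hx⟩ := nonempty_Iv q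
  have hs : StarConvex ℝ (x : ℂ) (OmI q) := by
    intro u hu a b ha hb hab him
    simp only [Complex.add_im, Complex.real_smul, Complex.mul_im, Complex.ofReal_re,
      Complex.ofReal_im, mul_zero, zero_mul, add_zero, zero_add] at him
    simp only [Complex.add_re, Complex.real_smul, Complex.mul_re, Complex.ofReal_re,
      Complex.ofReal_im, zero_mul, sub_zero]
    rcases mul_eq_zero.1 him with h | h
    · have ha1 : a = 1 := by linarith
      rw [h, ha1]
      simpa using hx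
    · have := convex_Iv q hx (hu h) ha hb hab
      simpa using this
  exact (hs.isPathConnected (fun _ => by simpa using hx)).isConnected.isPreconnected

theorem Up_sub_OmI (q : Fin 4) : Up ⊆ OmI q := by
  intro u hu him
  have : 0 < u.im := hu
  rw [him] at this
  exact absurd this (lt_irrefl _)

theorem I_mem_Up : Complex.I ∈ Up := by simp [Up]

/-- two holomorphic functions on `OmI q` which agree on `Up` agree -/
theorem eqOn_OmI (q : Fin 4) {f g : ℂ → ℂ} (hf : DifferentiableOn ℂ f (OmI q))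
    (hg : DifferentiableOn ℂ g (OmI q)) (h : ∀ z ∈ Up, f z = g z) : ∀ z ∈ OmI q, f z = g z :=
  eqOn_of_open (isOpen_OmI q) (isPreconnected_OmI q) hf hg isOpen_Up I_mem_Up
    (Up_sub_OmI q I_mem_Up) (fun z _ hz => h z hz)

/-! ### evaluation of the slot 6 -/

theorem evq_zero (z : ℂ) : evq 0 z = 0 := by rw [evq_eq]; exact ev_zero z

theorem evq_neg (f : ℚ⟦X⟧) (z : ℂ) : evq (-f) z = -evq f z := by
  rw [evq_eq, evq_eq]; exact ev_neg f z

theorem evq_one_sub_X_mul {z : ℂ} (hz : ‖z‖ < 1) : evq ((1 - X) * serK) z = (1 - z) * evq serK z := by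
  rw [evq_eq, evq_eq, evQ, ev_mul (PG.one.sub PG.varX) pq_serK hz, ev_sub PG.one PG.varX hz,
    ev_one, ev_X]

theorem evq_X_mul {z : ℂ} (hz : ‖z‖ < 1) : evq (X * serK) z = z * evq serK z := by
  rw [evq_eq, evq_eq, evQ, ev_mul PG.varX pq_serK hz, ev_X]

variable {V : Fin 8 → ℂ → Fin 8 → ℂ}

/-- `A0`, slot 6 -/
theorem V6_eq (hV : IsV V) : ∀ u ∈ Up, V 6 u 6 = K0f u := by
  refine eqOn_of_open isOpen_Up convex_Up.isPreconnected (hV.hol 6 6)
    (fun u hu => (differentiableAt_K0f (mem_cutK_of_im (ne_of_gt hu))).differentiableWithinAt)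
    (isOpen_lt continuous_norm continuous_const) (z0 := Complex.I / 2)
    (show ‖Complex.I / 2‖ < (1 : ℝ) by simp; norm_num) (by simp [Up]) ?_
  intro u hu hb
  replace hb : ‖u‖ < 1 := hb
  rw [hV.at0 u hu hb 6, K0f, kC_eq hb, ← evq_one_sub_X_mul hb]
  simp [gl0, tupC, tup0, tup1, evq_zero]

/-- `A3`, slot 6 -/
theorem V7_eq (hV : IsV V) : ∀ u ∈ Up, V 7 u 6 = K3f u := by
  refine eqOn_of_open isOpen_Up convex_Up.isPreconnected (hV.hol 7 6)
    (fun u hu => (differentiableAt_K3f (Or.inl (ne_of_gt hu))).differentiableWithinAt)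
    (isOpen_lt continuous_const Complex.continuous_re) (z0 := 1 + Complex.I)
    (show (0 : ℝ) < (1 + Complex.I).re by simp)
    (by simp [Up]) ?_
  intro u hu hb
  have hb' := norm_t3_lt hb
  rw [hV.at3 u hu hb' 7, K3f, kC_eq hb', ← evq_X_mul hb']
  simp [gl3, k3v, tupC, tup0, tup1, evq_zero, evq_neg, gv, hv]

/-- `A3 + 2 i A0`, slot 6 -/
theorem V1_eq (hV : IsV V) : ∀ u ∈ Up, V 7 u 6 + 2 * Complex.I * V 6 u 6 = K1f u := by
  refine eqOn_of_open isOpen_Up convex_Up.isPreconnected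
    ((hV.hol 7 6).add ((hV.hol 6 6).const_mul _))
    (fun u hu => (differentiableAt_K1f (Or.inl (ne_of_gt hu))).differentiableWithinAt)
    (isOpen_lt Complex.continuous_re continuous_const) (z0 := -1 + Complex.I)
    (show (-1 + Complex.I).re < (0 : ℝ) by simp)
    (by simp [Up]) ?_
  intro u hu hb
  have hb' := norm_t1_lt hb
  rw [hV.at1 u hu hb' 7, hV.at1 u hu hb' 6, K1f, kC_eq hb']
  simp [gl1, tupC, tup0, tup1, evq_zero]

/-- `A0 - i A3`, slot 6 -/
theorem V2_eq (hV : IsV V) : ∀ u ∈ Up, V 6 u 6 - Complex.I * V 7 u 6 = K2f u := by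
  refine eqOn_of_open isOpen_Up convex_Up.isPreconnected
    ((hV.hol 6 6).sub ((hV.hol 7 6).const_mul _))
    (fun u hu => (differentiableAt_K2f (Or.inl (ne_of_gt hu))).differentiableWithinAt)
    (isOpen_lt continuous_const continuous_norm) (z0 := 2 * Complex.I)
    (show (1 : ℝ) < ‖2 * Complex.I‖ by simp)
    (by simp [Up]) ?_
  intro u hu hb
  have hb0 : u ≠ 0 := by rintro rfl; simp at hb; linarith
  have hb' : ‖1 / u‖ < 1 := by
    rw [norm_div, norm_one, div_lt_one (norm_pos_iff.2 hb0)]; exact hb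
  rw [hV.at2 u hu hb 7, hV.at2 u hu hb 6, K2f, kC_eq hb', ← evq_one_sub_X_mul hb']
  simp [gl2, A2v, tupC, tup0, tup1, evq_zero, evq_neg]

/-! ### continuation through the intervals -/

theorem mem_OmI_real {q : Fin 4} {u : ℂ} (hu : u ∈ OmI q) : u.im ≠ 0 ∨ (u.im = 0 ∧ u.re ∈ Iv q) := by
  by_cases h : u.im = 0
  · exact Or.inr ⟨h, hu h⟩
  · exact Or.inl h

theorem cutK_of_OmI1 {u : ℂ} (hu : u ∈ OmI 1) : u ∈ cutK := by
  rcases mem_OmI_real hu with h | ⟨_, h⟩
  · exact mem_cutK_of_im h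
  · exact mem_cutK_of_re h.1 (h.2.trans one_pos)

theorem cutK_of_OmI2 {u : ℂ} (hu : u ∈ OmI 2) : u ∈ cutK := by
  rcases mem_OmI_real hu with h | ⟨_, h⟩
  · exact mem_cutK_of_im h
  · exact mem_cutK_of_re ((by norm_num : (-1 : ℝ) < 0).trans h.1) h.2

theorem pos_of_OmI2 {u : ℂ} (hu : u ∈ OmI 2) : (u.im ≠ 0 ∨ 0 < u.re) ∧ u ≠ 1 := by
  rcases mem_OmI_real hu with h | ⟨_, h⟩
  · exact ⟨Or.inl h, by rintro rfl; simp at h⟩
  · exact ⟨Or.inr h.1, by rintro rfl; exact absurd h.2 (by simp)⟩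

theorem pos_of_OmI3 {u : ℂ} (hu : u ∈ OmI 3) : (u.im ≠ 0 ∨ 0 < u.re) ∧ u ≠ 1 := by
  rcases mem_OmI_real hu with h | ⟨_, h⟩
  · exact ⟨Or.inl h, by rintro rfl; simp at h⟩
  · have h' : (1 : ℝ) < u.re := h
    exact ⟨Or.inr (one_pos.trans h'), by rintro rfl; simp at h'⟩

theorem neg_of_OmI0 {u : ℂ} (hu : u ∈ OmI 0) : u.im ≠ 0 ∨ u.re < 0 := by
  rcases mem_OmI_real hu with h | ⟨_, h⟩
  · exact Or.inl h
  · have h' : u.re < -1 := h
    exact Or.inr (by linarith)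

theorem neg_of_OmI1 {u : ℂ} (hu : u ∈ OmI 1) : u.im ≠ 0 ∨ u.re < 0 := by
  rcases mem_OmI_real hu with h | ⟨_, h⟩
  · exact Or.inl h
  · exact Or.inr h.2

theorem norm_of_OmI0 {u : ℂ} (hu : u ∈ OmI 0) : u.im ≠ 0 ∨ 1 < ‖u‖ := by
  rcases mem_OmI_real hu with h | ⟨_, h⟩
  · exact Or.inl h
  · have h' : u.re < -1 := h
    refine Or.inr (lt_of_lt_of_le ?_ (Complex.abs_re_le_norm u))
    rw [abs_of_neg (by linarith)]
    linarith

theorem norm_of_OmI3 {u : ℂ} (hu : u ∈ OmI 3) : u.im ≠ 0 ∨ 1 < ‖u‖ := by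
  rcases mem_OmI_real hu with h | ⟨_, h⟩
  · exact Or.inl h
  · have h' : (1 : ℝ) < u.re := h
    refine Or.inr (lt_of_lt_of_le ?_ (Complex.abs_re_le_norm u))
    rw [abs_of_pos (by linarith)]
    exact h'

variable {W : Fin 8 → ℂ → Fin 8 → ℂ}

/-- `K_0` through `(-1,0)` and `(0,1)` -/
theorem W6_eq1 (hV : IsV V) (hW : IsW V 1 W) : ∀ u ∈ OmI 1, W 6 u 6 = K0f u :=
  eqOn_OmI 1 (hW.hol 6 6)
    (fun _ hu => (differentiableAt_K0f (cutK_of_OmI1 hu)).differentiableWithinAt)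
    (fun z hz => by rw [hW.up 6 z hz, V6_eq hV z hz])

theorem W6_eq2 (hV : IsV V) (hW : IsW V 2 W) : ∀ u ∈ OmI 2, W 6 u 6 = K0f u :=
  eqOn_OmI 2 (hW.hol 6 6)
    (fun _ hu => (differentiableAt_K0f (cutK_of_OmI2 hu)).differentiableWithinAt)
    (fun z hz => by rw [hW.up 6 z hz, V6_eq hV z hz])

/-- `K_3` through `(0,1)` and `(1,∞)` -/
theorem W7_eq2 (hV : IsV V) (hW : IsW V 2 W) : ∀ u ∈ OmI 2, W 7 u 6 = K3f u :=
  eqOn_OmI 2 (hW.hol 7 6)
    (fun _ hu => (differentiableAt_K3f (pos_of_OmI2 hu).1).differentiableWithinAt)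
    (fun z hz => by rw [hW.up 7 z hz, V7_eq hV z hz])

theorem W7_eq3 (hV : IsV V) (hW : IsW V 3 W) : ∀ u ∈ OmI 3, W 7 u 6 = K3f u :=
  eqOn_OmI 3 (hW.hol 7 6)
    (fun _ hu => (differentiableAt_K3f (pos_of_OmI3 hu).1).differentiableWithinAt)
    (fun z hz => by rw [hW.up 7 z hz, V7_eq hV z hz])

/-- `K_1` through `(-∞,-1)` and `(-1,0)` -/
theorem W1_eq0 (hV : IsV V) (hW : IsW V 0 W) :
    ∀ u ∈ OmI 0, W 7 u 6 + 2 * Complex.I * W 6 u 6 = K1f u :=
  eqOn_OmI 0 ((hW.hol 7 6).add ((hW.hol 6 6).const_mul _))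
    (fun _ hu => (differentiableAt_K1f (neg_of_OmI0 hu)).differentiableWithinAt)
    (fun z hz => by rw [hW.up 7 z hz, hW.up 6 z hz, V1_eq hV z hz])

theorem W1_eq1 (hV : IsV V) (hW : IsW V 1 W) :
    ∀ u ∈ OmI 1, W 7 u 6 + 2 * Complex.I * W 6 u 6 = K1f u :=
  eqOn_OmI 1 ((hW.hol 7 6).add ((hW.hol 6 6).const_mul _))
    (fun _ hu => (differentiableAt_K1f (neg_of_OmI1 hu)).differentiableWithinAt)
    (fun z hz => by rw [hW.up 7 z hz, hW.up 6 z hz, V1_eq hV z hz])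

/-- `K_2` through `(-∞,-1)` and `(1,∞)` -/
theorem W2_eq0 (hV : IsV V) (hW : IsW V 0 W) :
    ∀ u ∈ OmI 0, W 6 u 6 - Complex.I * W 7 u 6 = K2f u :=
  eqOn_OmI 0 ((hW.hol 6 6).sub ((hW.hol 7 6).const_mul _))
    (fun _ hu => (differentiableAt_K2f (norm_of_OmI0 hu)).differentiableWithinAt)
    (fun z hz => by rw [hW.up 7 z hz, hW.up 6 z hz, V2_eq hV z hz])

theorem W2_eq3 (hV : IsV V) (hW : IsW V 3 W) :
    ∀ u ∈ OmI 3, W 6 u 6 - Complex.I * W 7 u 6 = K2f u :=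
  eqOn_OmI 3 ((hW.hol 6 6).sub ((hW.hol 7 6).const_mul _))
    (fun _ hu => (differentiableAt_K2f (norm_of_OmI3 hu)).differentiableWithinAt)
    (fun z hz => by rw [hW.up 7 z hz, hW.up 6 z hz, V2_eq hV z hz])

/-- all four branches on all four cut planes, in closed form:
`(A0, A3)` in the slot 6 on `OmI 0, .., OmI 3` -/
theorem W67_0 (hV : IsV V) (hW : IsW V 0 W) {u : ℂ} (hu : u ∈ OmI 0) :
    W 6 u 6 = -K2f u - Complex.I * K1f u ∧ W 7 u 6 = 2 * Complex.I * K2f u - K1f u := by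
  have h1 := W1_eq0 hV hW u hu
  have h2 := W2_eq0 hV hW u hu
  have hI := Complex.I_mul_I
  rw [← h1, ← h2]
  constructor
  · linear_combination (2 * W 6 u 6) * hI
  · linear_combination (2 * W 7 u 6) * hI

theorem W67_1 (hV : IsV V) (hW : IsW V 1 W) {u : ℂ} (hu : u ∈ OmI 1) :
    W 6 u 6 = K0f u ∧ W 7 u 6 = K1f u - 2 * Complex.I * K0f u := by
  have h1 := W1_eq1 hV hW u hu
  have h2 := W6_eq1 hV hW u hu
  exact ⟨h2, by rw [← h1, ← h2]; ring⟩

theorem W67_2 (hV : IsV V) (hW : IsW V 2 W) {u : ℂ} (hu : u ∈ OmI 2) :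
    W 6 u 6 = K0f u ∧ W 7 u 6 = K3f u := ⟨W6_eq2 hV hW u hu, W7_eq2 hV hW u hu⟩

theorem W67_3 (hV : IsV V) (hW : IsW V 3 W) {u : ℂ} (hu : u ∈ OmI 3) :
    W 6 u 6 = K2f u + Complex.I * K3f u ∧ W 7 u 6 = K3f u := by
  have h1 := W2_eq3 hV hW u hu
  have h2 := W7_eq3 hV hW u hu
  exact ⟨by rw [← h1, ← h2]; ring, h2⟩

/-! ### real values -/

theorem conj_four : (starRingEnd ℂ) 4 = 4 := map_ofNat _ 4

theorem kC_conj (u : ℂ) : kC ((starRingEnd ℂ) u) = (starRingEnd ℂ) (kC u) := by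
  unfold kC stiel
  rw [map_mul, ← integral_conj]
  congr 1
  · rw [map_div₀, map_pow, Complex.conj_ofReal, conj_four]
  · refine integral_congr_ae (Eventually.of_forall fun x => ?_)
    simp [Complex.conj_ofReal]

theorem conj_real {u : ℂ} (hu : u.im = 0) : (starRingEnd ℂ) u = u := Complex.conj_eq_iff_im.2 hu

theorem kC_real {u : ℂ} (hu : u.im = 0) : (kC u).im = 0 := by
  have h := kC_conj u
  rw [conj_real hu] at h
  exact Complex.conj_eq_iff_im.1 h.symm

theorem conj_pc : (starRingEnd ℂ) pc = pc := Complex.conj_ofReal _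

theorem conj_two : (starRingEnd ℂ) 2 = 2 := map_ofNat _ 2

theorem K0f_conj (u : ℂ) : K0f ((starRingEnd ℂ) u) = (starRingEnd ℂ) (K0f u) := by
  simp only [K0f, kC_conj, map_mul, map_sub, map_one, map_div₀, conj_pc, conj_two]

theorem K3f_conj (u : ℂ) : K3f ((starRingEnd ℂ) u) = (starRingEnd ℂ) (K3f u) := by
  have h : ((starRingEnd ℂ) u - 1) / ((starRingEnd ℂ) u + 1)
      = (starRingEnd ℂ) ((u - 1) / (u + 1)) := by simp [map_div₀]
  simp only [K3f, h, kC_conj, map_neg, map_mul, conj_pc]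

theorem K1f_conj (u : ℂ) : K1f ((starRingEnd ℂ) u) = (starRingEnd ℂ) (K1f u) := by
  have h : ((starRingEnd ℂ) u + 1) / ((starRingEnd ℂ) u - 1)
      = (starRingEnd ℂ) ((u + 1) / (u - 1)) := by simp [map_div₀]
  simp only [K1f, h, kC_conj, map_mul, conj_pc]

theorem K2f_conj (u : ℂ) : K2f ((starRingEnd ℂ) u) = (starRingEnd ℂ) (K2f u) := by
  have h : 1 / (starRingEnd ℂ) u = (starRingEnd ℂ) (1 / u) := by rw [map_div₀, map_one]
  have h2 : (starRingEnd ℂ) (K2f u) = -(pc / 2 * ((1 - (starRingEnd ℂ) (1 / u))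
      * (starRingEnd ℂ) (kC (1 / u)))) := by
    rw [K2f, map_neg, map_mul, map_mul, map_sub, map_one, map_div₀ _ pc, conj_pc, conj_two]
  rw [h2, K2f, h, kC_conj]

theorem K0f_real {u : ℂ} (hu : u.im = 0) : (K0f u).im = 0 :=
  Complex.conj_eq_iff_im.1 (by rw [← K0f_conj, conj_real hu])

theorem K3f_real {u : ℂ} (hu : u.im = 0) : (K3f u).im = 0 :=
  Complex.conj_eq_iff_im.1 (by rw [← K3f_conj, conj_real hu])

theorem K1f_real {u : ℂ} (hu : u.im = 0) : (K1f u).im = 0 :=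
  Complex.conj_eq_iff_im.1 (by rw [← K1f_conj, conj_real hu])

theorem K2f_real {u : ℂ} (hu : u.im = 0) : (K2f u).im = 0 :=
  Complex.conj_eq_iff_im.1 (by rw [← K2f_conj, conj_real hu])

theorem add_I_mul_ne {a b : ℂ} (ha : a.im = 0) (hb : b.im = 0) (h : a ≠ 0) (r : ℝ) :
    a + r * (Complex.I * b) ≠ 0 := by
  intro h0
  apply h
  have h1 : (a + r * (Complex.I * b)).re = 0 := by rw [h0]; rfl
  simp [hb] at h1
  exact Complex.ext h1 ha

/-- no K-branch vanishes at a real point of an interval -/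
theorem W_ne_real (hV : IsV V) (q : Fin 4) (hW : IsW V q W) {u : ℂ} (hu : u ∈ OmI q)
    (hr : u.im = 0) : W 6 u 6 ≠ 0 ∧ W 7 u 6 ≠ 0 ∧ W 7 u 6 + 2 * Complex.I * W 6 u 6 ≠ 0
      ∧ W 6 u 6 - Complex.I * W 7 u 6 ≠ 0 := by
  have hI := Complex.I_mul_I
  have h0 := K0f_real hr
  have h1 := K1f_real hr
  have h2 := K2f_real hr
  have h3 := K3f_real hr
  fin_cases q
  · obtain ⟨e6, e7⟩ := W67_0 hV hW hu
    have n1 := K1f_ne (neg_of_OmI0 hu)
    have n2 := K2f_ne (norm_of_OmI0 hu)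
    have m2 : (-K2f u).im = 0 := by simp [h2]
    have m1 : (-K1f u).im = 0 := by simp [h1]
    rw [e6, e7]
    refine ⟨?_, ?_, ?_, ?_⟩
    · have := add_I_mul_ne m2 h1 (neg_ne_zero.2 n2) (-1)
      intro h; apply this; rw [← h]; push_cast; ring
    · have := add_I_mul_ne m1 h2 (neg_ne_zero.2 n1) 2
      intro h; apply this; rw [← h]; push_cast; ring
    · intro h; apply n1; linear_combination h + 2 * K1f u * hI
    · intro h; apply n2; linear_combination h + 2 * K2f u * hI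
  · obtain ⟨e6, e7⟩ := W67_1 hV hW hu
    have n1 := K1f_ne (neg_of_OmI1 hu)
    have n0 := K0f_ne (cutK_of_OmI1 hu)
    have m0 : (-K0f u).im = 0 := by simp [h0]
    rw [e6, e7]
    refine ⟨n0, ?_, ?_, ?_⟩
    · have := add_I_mul_ne h1 h0 n1 (-2)
      intro h; apply this; rw [← h]; push_cast; ring
    · intro h; apply n1; linear_combination h
    · have := add_I_mul_ne m0 h1 (neg_ne_zero.2 n0) (-1)
      intro h; apply this; rw [← h]; push_cast; linear_combination (-2 * K0f u) * hI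
  · obtain ⟨e6, e7⟩ := W67_2 hV hW hu
    have n0 := K0f_ne (cutK_of_OmI2 hu)
    have n3 := K3f_ne (pos_of_OmI2 hu).1 (pos_of_OmI2 hu).2
    rw [e6, e7]
    refine ⟨n0, n3, ?_, ?_⟩
    · have := add_I_mul_ne h3 h0 n3 2
      intro h; apply this; rw [← h]; push_cast; ring
    · have := add_I_mul_ne h0 h3 n0 (-1)
      intro h; apply this; rw [← h]; push_cast; ring
  · obtain ⟨e6, e7⟩ := W67_3 hV hW hu
    have n2 := K2f_ne (norm_of_OmI3 hu)
    have n3 := K3f_ne (pos_of_OmI3 hu).1 (pos_of_OmI3 hu).2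
    have m3 : (-K3f u).im = 0 := by simp [h3]
    rw [e6, e7]
    refine ⟨?_, n3, ?_, ?_⟩
    · have := add_I_mul_ne h2 h3 n2 1
      intro h; apply this; rw [← h]; push_cast; ring
    · have := add_I_mul_ne m3 h2 (neg_ne_zero.2 n3) 2
      intro h; apply this; rw [← h]; push_cast; linear_combination (-2 * K3f u) * hI
    · intro h; apply n2; linear_combination h

/-- no K-branch vanishes on the upper half plane -/
theorem V_ne (hV : IsV V) {u : ℂ} (hu : u ∈ Up) : V 6 u 6 ≠ 0 ∧ V 7 u 6 ≠ 0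
    ∧ V 7 u 6 + 2 * Complex.I * V 6 u 6 ≠ 0 ∧ V 6 u 6 - Complex.I * V 7 u 6 ≠ 0 := by
  have him : u.im ≠ 0 := ne_of_gt hu
  rw [V1_eq hV u hu, V2_eq hV u hu, V6_eq hV u hu, V7_eq hV u hu]
  exact ⟨K0f_ne (mem_cutK_of_im him), K3f_ne (Or.inl him) (by rintro rfl; simp at him),
    K1f_ne (Or.inl him), K2f_ne (Or.inl him)⟩

end

end Vale.Agent.P030.H181
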